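import Vale.Agent.Lib.P063.Thinning

open Finset

namespace Vale.Agent.Lib.P063

lemma mu_eq (n r : ℕ) (p : ℝ) (P : Set (Finset (Finset (Fin n)))) :
    mu n r p P = muG (edgeSet n r) p P := by
  unfold mu muG wt
  rfl

lemma pAt_eq (n r : ℕ) (a : ℝ) (P : Set (Finset (Finset (Fin n)))) :
    pAt n r a P = pAtG (edgeSet n r) a P := by
  unfold pAt pAtG
  simp only [mu_eq]

lemma clique_isProperty (n r k : ℕ) : IsProperty n r (cliqueProp n r k) := by
  constructor
  · intro H hH
    exact hH.1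
  · intro σ H hH
    obtain ⟨hHE, K, hK, hKH⟩ := hH
    refine ⟨?_, K.image σ, ?_, ?_⟩
    · intro e he
      obtain ⟨e', he', rfl⟩ := Finset.mem_image.mp he
      have h1 := Finset.mem_powersetCard.mp (hHE he')
      exact Finset.mem_powersetCard.mpr ⟨Finset.subset_univ _,
        by rw [Finset.card_image_of_injective _ σ.injective]; exact h1.2⟩
    · rw [Finset.card_image_of_injective _ σ.injective]; exact hK
    · intro e he
      obtain ⟨h1, h2⟩ := Finset.mem_powersetCard.mp he
      refine Finset.mem_image.mpr ⟨e.image σ.symm, hKH ?_, ?_⟩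
      · refine Finset.mem_powersetCard.mpr ⟨?_, ?_⟩
        · intro x hx
          obtain ⟨y, hy, rfl⟩ := Finset.mem_image.mp hx
          obtain ⟨z, hz, rfl⟩ := Finset.mem_image.mp (h1 hy)
          simpa using hz
        · rw [Finset.card_image_of_injective _ σ.symm.injective]; exact h2
      · rw [Finset.image_image]
        simp

lemma clique_isIncreasing (n r k : ℕ) : IsIncreasing n r (cliqueProp n r k) := by
  intro H hH H' hHH' hH'
  obtain ⟨_, K, hK, hKH⟩ := hH
  exact ⟨hH', K, hK, hKH.trans hHH'⟩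

lemma clique_full_mem (n r k : ℕ) (hkn : k ≤ n) : edgeSet n r ∈ cliqueProp n r k := by
  obtain ⟨K, _, hK⟩ := Finset.exists_subset_card_eq (s := (Finset.univ : Finset (Fin n)))
    (n := k) (by simpa using hkn)
  refine ⟨le_refl _, K, hK, ?_⟩
  exact Finset.powersetCard_mono (Finset.subset_univ K)

lemma clique_isNontrivial (n r k : ℕ) (hrk : r ≤ k) (hkn : k ≤ n) :
    IsNontrivial n r (cliqueProp n r k) := by
  refine ⟨⟨_, clique_full_mem n r k hkn⟩, ∅, Finset.empty_subset _, ?_⟩
  rintro ⟨_, K, hK, hKH⟩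
  have h1 : (K.powersetCard r).card = 0 := by
    rw [Finset.subset_empty.mp hKH]; rfl
  rw [Finset.card_powersetCard, hK] at h1
  exact absurd h1 (Nat.choose_pos hrk).ne'

lemma clique_cert (n r k : ℕ) : ∀ H ∈ cliqueProp n r k,
    ∃ S ∈ cliqueProp n r k, S ⊆ H ∧ S.card ≤ k.choose r := by
  rintro H ⟨_, K, hK, hKH⟩
  refine ⟨K.powersetCard r, ⟨Finset.powersetCard_mono (Finset.subset_univ K), K, hK, le_refl _⟩,
    hKH, ?_⟩
  rw [Finset.card_powersetCard, hK]

lemma clique_mu_le (n r k : ℕ) (p : ℝ) (hp0 : 0 ≤ p) (hp1 : p ≤ 1) :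
    muG (edgeSet n r) p (cliqueProp n r k) ≤ (n.choose k : ℝ) * p ^ (k.choose r) := by
  classical
  set G : Finset (Finset (Finset (Fin n))) :=
    ((Finset.univ : Finset (Fin n)).powersetCard k).image (fun K => K.powersetCard r) with hG
  have h := first_moment (edgeSet n r) (cliqueProp n r k) G ?_ ?_ p hp0 hp1
  · refine h.trans ?_
    have h2 : ∀ S ∈ G, p ^ S.card = p ^ (k.choose r) := by
      intro S hS
      obtain ⟨K, hK, rfl⟩ := Finset.mem_image.mp hS
      rw [Finset.card_powersetCard, (Finset.mem_powersetCard.mp hK).2]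
    rw [Finset.sum_congr rfl h2, Finset.sum_const, nsmul_eq_mul]
    apply mul_le_mul_of_nonneg_right _ (by positivity)
    have : G.card ≤ n.choose k := by
      refine Finset.card_image_le.trans ?_
      rw [Finset.card_powersetCard]; simp
    exact_mod_cast this
  · intro S hS
    obtain ⟨K, hK, rfl⟩ := Finset.mem_image.mp hS
    exact Finset.powersetCard_mono (Finset.subset_univ K)
  · rintro H ⟨_, K, hK, hKH⟩
    exact ⟨K.powersetCard r, Finset.mem_image.mpr ⟨K, Finset.mem_powersetCard.mpr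
      ⟨Finset.subset_univ K, hK⟩, rfl⟩, hKH⟩

/-- the width of the clique property. -/
lemma clique_width (n r k : ℕ) (hrk : r ≤ k) (hkn : k ≤ n)
    (hnum : (n.choose k : ℝ) * (1 / 2) ^ (k.choose r) ≤ 1 / 2)
    (ε : ℝ) (hε0 : 0 < ε) (hε1 : ε < 1 / 2) :
    (1 - 2 * ε) / (2 * (1 - ε) * (k.choose r)) ≤ width n r ε (cliqueProp n r k) := by
  have hc : 1 ≤ k.choose r := Nat.choose_pos hrk
  have hw := width_lower (edgeSet n r) (cliqueProp n r k) (clique_full_mem n r k hkn)
    (clique_isIncreasing n r k) (k.choose r) hc (clique_cert n r k) ε hε0 hε1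
  unfold width
  rw [pAt_eq, pAt_eq]
  refine le_trans ?_ hw
  have hhalf : 1 / 2 ≤ pAtG (edgeSet n r) (1 - ε) (cliqueProp n r k) := by
    apply le_csInf
    · exact ⟨1, by norm_num, le_refl 1, by
        rw [muG_one _ _ (clique_full_mem n r k hkn)]; linarith⟩
    · rintro p ⟨hp0, hp1, hmu⟩
      by_contra hlt
      push Not at hlt
      have h1 := clique_mu_le n r k p hp0 hp1
      have h2 : (n.choose k : ℝ) * p ^ (k.choose r) ≤ (n.choose k : ℝ) * (1 / 2) ^ (k.choose r) := by
        apply mul_le_mul_of_nonneg_left _ (by positivity)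
        exact pow_le_pow_left₀ hp0 hlt.le _
      linarith
  have hcpos : (0 : ℝ) < (k.choose r : ℝ) := by exact_mod_cast hc
  have h1e : 0 < 1 - ε := by linarith
  have hcoef : 0 ≤ (1 - 2 * ε) / ((1 - ε) * (k.choose r : ℝ)) := by
    apply div_nonneg (by linarith) (by positivity)
  calc (1 - 2 * ε) / (2 * (1 - ε) * (k.choose r))
      = (1 - 2 * ε) / ((1 - ε) * (k.choose r : ℝ)) * (1 / 2) := by field_simp
    _ ≤ _ := mul_le_mul_of_nonneg_left hhalf hcoef

end Vale.Agent.Lib.P063
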