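import Mathlib

/-!
Definitions for P063 (threshold width of hypergraph properties).
A hypergraph on the vertex set `Fin n` is a `Finset (Finset (Fin n))`.
-/

namespace Vale.Agent.Lib.P063

open Finset

/-- `E_{n,r}`: the set of all `r`-subsets of the vertex set `Fin n`. -/
def edgeSet (n r : ℕ) : Finset (Finset (Fin n)) :=
  (Finset.univ : Finset (Fin n)).powersetCard r

/-- The hypergraph obtained from `H` by relabelling the vertices by the permutation `σ`. -/
def relabel {n : ℕ} (σ : Equiv.Perm (Fin n)) (H : Finset (Finset (Fin n))) :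
    Finset (Finset (Fin n)) :=
  H.image (fun e => e.image σ)

/-- `P` is an `r`-uniform hypergraph property on `n` vertices: a family of `r`-uniform hypergraphs
on `Fin n` that is invariant under all permutations of the vertices. -/
structure IsProperty (n r : ℕ) (P : Set (Finset (Finset (Fin n)))) : Prop where
  uniform : ∀ H ∈ P, H ⊆ edgeSet n r
  invariant : ∀ (σ : Equiv.Perm (Fin n)), ∀ H ∈ P, relabel σ H ∈ P

/-- adding edges preserves membership. -/
def IsIncreasing (n r : ℕ) (P : Set (Finset (Finset (Fin n)))) : Prop :=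
  ∀ H ∈ P, ∀ H', H ⊆ H' → H' ⊆ edgeSet n r → H' ∈ P

/-- neither empty nor everything. -/
def IsNontrivial (n r : ℕ) (P : Set (Finset (Finset (Fin n)))) : Prop :=
  (∃ H, H ∈ P) ∧ ∃ H, H ⊆ edgeSet n r ∧ H ∉ P

open Classical in
/-- `μ_p(P)`: the probability that the random `r`-uniform hypergraph with edge probability `p`
lies in `P`. -/
noncomputable def mu (n r : ℕ) (p : ℝ) (P : Set (Finset (Finset (Fin n)))) : ℝ :=
  ∑ H ∈ (edgeSet n r).powerset.filter (fun H => H ∈ P),
    p ^ H.card * (1 - p) ^ ((edgeSet n r).card - H.card)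

/-- `p_a(P) = inf {p ∈ [0,1] : μ_p(P) ≥ a}`. -/
noncomputable def pAt (n r : ℕ) (a : ℝ) (P : Set (Finset (Finset (Fin n)))) : ℝ :=
  sInf {p : ℝ | 0 ≤ p ∧ p ≤ 1 ∧ a ≤ mu n r p P}

/-- the threshold width `w_ε(P) = p_{1-ε}(P) - p_ε(P)`. -/
noncomputable def width (n r : ℕ) (ε : ℝ) (P : Set (Finset (Finset (Fin n)))) : ℝ :=
  pAt n r (1 - ε) P - pAt n r ε P

/-- the property of containing a complete `r`-uniform hypergraph on some `k` vertices. -/
def cliqueProp (n r k : ℕ) : Set (Finset (Finset (Fin n))) :=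
  {H | H ⊆ edgeSet n r ∧ ∃ K : Finset (Fin n), K.card = k ∧ K.powersetCard r ⊆ H}

end Vale.Agent.Lib.P063
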