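import Vale.Agent.Lib.P063.Clique

open Finset

namespace Vale.Agent.Lib.P063

lemma numerics (r : ℕ) (hr : 2 ≤ r) : ∃ A : ℝ, 0 < A ∧ ∀ᶠ n : ℕ in Filter.atTop,
    ∃ k, r ≤ k ∧ k ≤ n ∧
    (n.choose k : ℝ) * (1 / 2) ^ (k.choose r) ≤ 1 / 2 ∧
    (k.choose r : ℝ) ≤ A * (Real.log n) ^ ((r : ℝ) / (r - 1)) := by
  set B : ℕ := 3 * r * r.factorial with hB
  have hrpos : 0 < r := by omega
  have hBpos : 0 < B := by positivity
  have hBposR : (0 : ℝ) < (B : ℝ) := by exact_mod_cast hBpos
  have hr2 : (2 : ℝ) ≤ r := by exact_mod_cast hr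
  have hr1 : (0 : ℝ) < (r : ℝ) - 1 := by linarith
  set s : ℝ := (r : ℝ) / (r - 1) with hs
  have hspos : 0 < s := by positivity
  refine ⟨(4 * r) ^ r * (4 * B) ^ s, by positivity, ?_⟩
  have hev1 : ∀ᶠ n : ℕ in Filter.atTop, Real.log n ≤ (1 / (16 * B)) * n := by
    have h := Real.isLittleO_log_id_atTop.def (c := 1 / (16 * (B : ℝ))) (by positivity)
    have h' := tendsto_natCast_atTop_atTop (R := ℝ) |>.eventually h
    filter_upwards [h'] with n hn
    have h0 : (0 : ℝ) ≤ n := Nat.cast_nonneg n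
    simp only [id, Real.norm_eq_abs, abs_of_nonneg h0] at hn
    exact (le_abs_self _).trans hn
  filter_upwards [hev1, Filter.eventually_ge_atTop (2 * r), Filter.eventually_ge_atTop 2]
    with n h1 h2 h3
  set m := Nat.log 2 n + 1 with hm
  have hmpos : 0 < m := by omega
  set y : ℝ := ((B * m : ℕ) : ℝ) with hy
  have hy1 : 1 ≤ y := by
    rw [hy]
    have : 1 ≤ B * m := Nat.succ_le_of_lt (by positivity)
    exact_mod_cast this
  have hy0 : 0 ≤ y := by linarith
  set e : ℝ := 1 / ((r : ℝ) - 1) with he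
  have he0 : 0 < e := by positivity
  have he1 : e ≤ 1 := by
    rw [he, div_le_one hr1]; linarith
  set x : ℝ := y ^ e with hx
  have hx1 : 1 ≤ x := Real.one_le_rpow hy1 he0.le
  have hxy : x ≤ y := by
    calc x = y ^ e := rfl
      _ ≤ y ^ (1 : ℝ) := Real.rpow_le_rpow_of_exponent_le hy1 he1
      _ = y := Real.rpow_one y
  set t := ⌈x⌉₊ with ht
  have htx : x ≤ t := Nat.le_ceil x
  have htx2 : (t : ℝ) < x + 1 := Nat.ceil_lt_add_one (by linarith)
  have ht1 : 1 ≤ t := by
    have : (1 : ℝ) ≤ t := hx1.trans htx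
    exact_mod_cast this
  -- m ≤ 4 log n
  have hn0 : n ≠ 0 := by omega
  have hlog2 : (1 : ℝ) / 2 ≤ Real.log 2 := by
    have := Real.log_two_gt_d9; linarith
  have hlogn : Real.log 2 ≤ Real.log n := by
    apply Real.log_le_log (by norm_num)
    exact_mod_cast h3
  have hmlog : (m : ℝ) ≤ 4 * Real.log n := by
    have hp : 2 ^ (Nat.log 2 n) ≤ n := Nat.pow_log_le_self 2 hn0
    have hp' : ((2 : ℝ) ^ (Nat.log 2 n)) ≤ n := by exact_mod_cast hp
    have hl := Real.log_le_log (by positivity) hp'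
    rw [Real.log_pow] at hl
    have h5 : (Nat.log 2 n : ℝ) * (1 / 2) ≤ (Nat.log 2 n : ℝ) * Real.log 2 :=
      mul_le_mul_of_nonneg_left hlog2 (Nat.cast_nonneg _)
    rw [hm]; push_cast
    linarith
  -- t^(r-1) ≥ B m
  have hcast : ((r - 1 : ℕ) : ℝ) = (r : ℝ) - 1 := by
    rw [Nat.cast_sub (by omega)]; simp
  have hxpow : x ^ (r - 1) = y := by
    rw [hx, ← Real.rpow_natCast, ← Real.rpow_mul hy0, hcast, he]
    rw [one_div, inv_mul_cancel₀ hr1.ne', Real.rpow_one]
  have htpow : B * m ≤ t ^ (r - 1) := by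
    have : y ≤ (t : ℝ) ^ (r - 1) := by
      rw [← hxpow]
      exact pow_le_pow_left₀ (by linarith) htx _
    rw [hy] at this
    exact_mod_cast this
  have a1 : r ≤ r * t := Nat.le_mul_of_pos_right _ ht1
  have a2 : t ≤ r * t := Nat.le_mul_of_pos_left _ hrpos
  have a3 : 1 ≤ r * t * m := Nat.succ_le_of_lt (by positivity)
  have hchoose : m * (r + t) + 1 ≤ (r + t).choose r := by
    have h6 : (r + t + 1 - r) ^ r ≤ r.factorial * (r + t).choose r := by
      have h := Nat.pow_le_choose (α := ℝ) r (r + t)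
      have hf : (0 : ℝ) < (r.factorial : ℝ) := by exact_mod_cast Nat.factorial_pos r
      rw [div_le_iff₀ hf] at h
      have h' : (((r + t + 1 - r) ^ r : ℕ) : ℝ) ≤ ((r.factorial * (r + t).choose r : ℕ) : ℝ) := by
        push_cast
        linarith
      exact_mod_cast h'
    have h7 : r + t + 1 - r = t + 1 := by omega
    rw [h7] at h6
    have h8 : t ^ r ≤ (t + 1) ^ r := Nat.pow_le_pow_left (by omega) r
    have h9 : t ^ r = t ^ (r - 1) * t := by
      rw [← pow_succ]; congr 1; omega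
    have h10 : B * m * t ≤ t ^ r := by
      rw [h9]; exact Nat.mul_le_mul_right t htpow
    have h11 : m * (r + t) + 1 ≤ 3 * r * m * t := by
      calc m * (r + t) + 1 ≤ m * (r * t + r * t) + r * t * m := by gcongr
        _ = 3 * r * m * t := by ring
    have h12 : r.factorial * (m * (r + t) + 1) ≤ r.factorial * (r + t).choose r := by
      calc r.factorial * (m * (r + t) + 1) ≤ r.factorial * (3 * r * m * t) :=
            Nat.mul_le_mul_left _ h11
        _ = B * m * t := by rw [hB]; ring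
        _ ≤ t ^ r := h10
        _ ≤ (t + 1) ^ r := h8
        _ ≤ _ := h6
    exact Nat.le_of_mul_le_mul_left h12 (Nat.factorial_pos r)
  have hyle : y ≤ 4 * B * Real.log n := by
    rw [hy]; push_cast
    calc (B : ℝ) * m ≤ B * (4 * Real.log n) := mul_le_mul_of_nonneg_left hmlog hBposR.le
      _ = 4 * B * Real.log n := by ring
  have hlogpos : 0 ≤ Real.log n := by linarith
  refine ⟨r + t, by omega, ?_, ?_, ?_⟩
  · -- k ≤ n
    have : ((r + t : ℕ) : ℝ) ≤ n := by
      push_cast
      have h2' : (2 : ℝ) * r ≤ n := by exact_mod_cast h2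
      have h13 : 4 * (B : ℝ) * Real.log n ≤ 4 * B * ((1 / (16 * B)) * n) := by
        apply mul_le_mul_of_nonneg_left h1 (by positivity)
      have h14 : 4 * (B : ℝ) * ((1 / (16 * B)) * n) = n / 4 := by
        field_simp; ring
      linarith
    exact_mod_cast this
  · -- first moment numerics
    have hlt : n < 2 ^ m := Nat.lt_pow_succ_log_self (by norm_num) n
    have h15 : n.choose (r + t) ≤ 2 ^ (m * (r + t)) := by
      calc n.choose (r + t) ≤ n ^ (r + t) := Nat.choose_le_pow _ _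
        _ ≤ (2 ^ m) ^ (r + t) := Nat.pow_le_pow_left hlt.le _
        _ = 2 ^ (m * (r + t)) := by rw [← pow_mul]
    have h15' : (n.choose (r + t) : ℝ) ≤ 2 ^ (m * (r + t)) := by exact_mod_cast h15
    have h16 : ((1 : ℝ) / 2) ^ ((r + t).choose r) ≤ (1 / 2) ^ (m * (r + t) + 1) :=
      pow_le_pow_of_le_one (by norm_num) (by norm_num) hchoose
    calc (n.choose (r + t) : ℝ) * (1 / 2) ^ ((r + t).choose r)
        ≤ 2 ^ (m * (r + t)) * (1 / 2) ^ (m * (r + t) + 1) := by
          apply mul_le_mul h15' h16 (by positivity) (by positivity)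
      _ = 1 / 2 := by
          rw [pow_succ, ← mul_assoc, ← mul_pow]; norm_num
  · -- upper bound on the certificate size
    have h17 : ((r + t).choose r : ℝ) ≤ ((r + t : ℕ) : ℝ) ^ r := by
      exact_mod_cast Nat.choose_le_pow _ _
    have a1' : (r : ℝ) ≤ r * t := by exact_mod_cast a1
    have a2' : (t : ℝ) ≤ r * t := by exact_mod_cast a2
    have h18 : ((r + t : ℕ) : ℝ) ≤ 4 * r * x := by
      push_cast
      have : (r : ℝ) * t ≤ r * (2 * x) := by
        apply mul_le_mul_of_nonneg_left _ (by positivity)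
        linarith
      linarith
    have hxr : x ^ r = y ^ s := by
      rw [hx, ← Real.rpow_natCast, ← Real.rpow_mul hy0, he, hs]
      congr 1; field_simp
    calc ((r + t).choose r : ℝ) ≤ ((r + t : ℕ) : ℝ) ^ r := h17
      _ ≤ (4 * r * x) ^ r := pow_le_pow_left₀ (Nat.cast_nonneg _) h18 _
      _ = (4 * r) ^ r * y ^ s := by rw [mul_pow, hxr]
      _ ≤ (4 * r) ^ r * (4 * B * Real.log n) ^ s := by
          apply mul_le_mul_of_nonneg_left _ (by positivity)
          exact Real.rpow_le_rpow hy0 hyle hspos.le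
      _ = (4 * r) ^ r * (4 * B) ^ s * Real.log n ^ s := by
          rw [Real.mul_rpow (by positivity) hlogpos, mul_assoc]

end Vale.Agent.Lib.P063
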