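import Vale.Agent.Lib.P063.Defs

open Finset

namespace Vale.Agent.Lib.P063

section general
variable {α : Type*} [DecidableEq α]

/-- sum over the interval `A ⊆ C ⊆ B`. -/
lemma interval_sum (A B : Finset α) (hAB : A ⊆ B) (a b : ℝ) :
    ∑ C ∈ B.powerset.filter (fun C => A ⊆ C), a ^ (C.card - A.card) * b ^ (B.card - C.card)
      = (a + b) ^ (B.card - A.card) := by
  rw [← Finset.card_sdiff_of_subset hAB, ← Finset.sum_pow_mul_eq_add_pow]
  apply Finset.sum_nbij' (fun C => C \ A) (fun T => A ∪ T)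
  · intro C hC
    obtain ⟨hCB, hAC⟩ := Finset.mem_filter.mp hC
    exact Finset.mem_powerset.mpr (Finset.sdiff_subset_sdiff (Finset.mem_powerset.mp hCB) (le_refl A))
  · intro T hT
    have hT' := Finset.mem_powerset.mp hT
    refine Finset.mem_filter.mpr ⟨Finset.mem_powerset.mpr ?_, Finset.subset_union_left⟩
    exact Finset.union_subset hAB (hT'.trans Finset.sdiff_subset)
  · intro C hC
    obtain ⟨_, hAC⟩ := Finset.mem_filter.mp hC
    exact Finset.union_sdiff_of_subset hAC
  · intro T hT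
    have hT' := Finset.mem_powerset.mp hT
    have hdisj : Disjoint A T := by
      rw [Finset.disjoint_left]
      intro x hxA hxT
      exact (Finset.mem_sdiff.mp (hT' hxT)).2 hxA
    rw [Finset.union_sdiff_cancel_left hdisj]
  · intro C hC
    obtain ⟨hCB, hAC⟩ := Finset.mem_filter.mp hC
    have hCB' := Finset.mem_powerset.mp hCB
    rw [Finset.card_sdiff_of_subset hAC, Finset.card_sdiff_of_subset hAB]
    have h1 := Finset.card_le_card hAC
    have h2 := Finset.card_le_card hCB'
    congr 2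
    omega



/-- the `p`-biased weight of `H` inside the ground set `E`. -/
noncomputable def wt (E : Finset α) (p : ℝ) (H : Finset α) : ℝ :=
  p ^ H.card * (1 - p) ^ (E.card - H.card)

omit [DecidableEq α] in
lemma wt_nonneg (E : Finset α) {p : ℝ} (hp0 : 0 ≤ p) (hp1 : p ≤ 1) (H : Finset α) : 0 ≤ wt E p H := by
  unfold wt
  have : 0 ≤ 1 - p := by linarith
  positivity

/-- the `p`-biased measure of a family `P` of subsets of the ground set `E`. -/
noncomputable def muG (E : Finset α) (p : ℝ) (P : Set (Finset α)) : ℝ := by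
  classical
  exact ∑ H ∈ E.powerset.filter (fun H => H ∈ P), wt E p H

lemma upset_sum (E S : Finset α) (hS : S ⊆ E) (p : ℝ) :
    ∑ H ∈ E.powerset.filter (fun H => S ⊆ H), wt E p H = p ^ S.card := by
  have h := interval_sum S E hS p (1 - p)
  have h1 : p + (1 - p) = 1 := by ring
  rw [h1, one_pow] at h
  calc ∑ H ∈ E.powerset.filter (fun H => S ⊆ H), wt E p H
      = ∑ H ∈ E.powerset.filter (fun H => S ⊆ H),
          p ^ S.card * (p ^ (H.card - S.card) * (1 - p) ^ (E.card - H.card)) := by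
        apply Finset.sum_congr rfl
        intro H hH
        have hSH := (Finset.mem_filter.mp hH).2
        unfold wt
        rw [← mul_assoc, ← pow_add, Nat.add_sub_cancel' (Finset.card_le_card hSH)]
    _ = p ^ S.card := by rw [← Finset.mul_sum, h, mul_one]

lemma thin_identity (E H' : Finset α) (hH' : H' ⊆ E) (p l : ℝ) :
    wt E (l * p) H' = ∑ H ∈ E.powerset.filter (fun H => H' ⊆ H), wt E p H * wt H l H' := by
  have h := interval_sum H' E hH' (p * (1 - l)) (1 - p)
  have h1 : p * (1 - l) + (1 - p) = 1 - l * p := by ring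
  rw [h1] at h
  unfold wt
  rw [← h, Finset.mul_sum]
  apply Finset.sum_congr rfl
  intro H hH
  have hle := Finset.card_le_card (Finset.mem_filter.mp hH).2
  have e : p ^ H.card = p ^ H'.card * p ^ (H.card - H'.card) := by
    rw [← pow_add, Nat.add_sub_cancel' hle]
  rw [e, mul_pow, mul_pow]
  ring

/-- Thinning inequality: if every member of the increasing family `P` contains a member of size at
most `k`, then `l ^ k * μ_p(P) ≤ μ_{l p}(P)`. -/
lemma thinning (E : Finset α) (P : Set (Finset α))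
    (hinc : ∀ H ∈ P, ∀ H', H ⊆ H' → H' ⊆ E → H' ∈ P)
    (k : ℕ) (hcert : ∀ H ∈ P, ∃ S ∈ P, S ⊆ H ∧ S.card ≤ k)
    (p l : ℝ) (hp0 : 0 ≤ p) (hp1 : p ≤ 1) (hl0 : 0 ≤ l) (hl1 : l ≤ 1) :
    l ^ k * muG E p P ≤ muG E (l * p) P := by
  classical
  unfold muG
  have e1 : ∑ H' ∈ E.powerset.filter (fun H => H ∈ P), wt E (l * p) H'
      = ∑ H ∈ E.powerset, wt E p H *
          ∑ H' ∈ E.powerset.filter (fun H => H ∈ P), (if H' ⊆ H then wt H l H' else 0) := by
    calc ∑ H' ∈ E.powerset.filter (fun H => H ∈ P), wt E (l * p) H'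
        = ∑ H' ∈ E.powerset.filter (fun H => H ∈ P), ∑ H ∈ E.powerset,
            (if H' ⊆ H then wt E p H * wt H l H' else 0) := by
          apply Finset.sum_congr rfl
          intro H' hH'
          rw [thin_identity E H' (Finset.mem_powerset.mp (Finset.mem_filter.mp hH').1) p l,
            Finset.sum_filter]
      _ = ∑ H ∈ E.powerset, ∑ H' ∈ E.powerset.filter (fun H => H ∈ P),
            (if H' ⊆ H then wt E p H * wt H l H' else 0) := Finset.sum_comm
      _ = _ := by
          apply Finset.sum_congr rfl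
          intro H _
          rw [Finset.mul_sum]
          apply Finset.sum_congr rfl
          intro H' _
          split_ifs <;> simp
  rw [e1, Finset.mul_sum, Finset.sum_filter]
  apply Finset.sum_le_sum
  intro H hH
  have hHE := Finset.mem_powerset.mp hH
  have hnn : ∀ H' : Finset α, 0 ≤ (if H' ⊆ H then wt H l H' else 0) := by
    intro H'
    split_ifs
    · exact wt_nonneg H hl0 hl1 H'
    · exact le_rfl
  by_cases hP : H ∈ P
  · simp only [hP, if_true]
    rw [mul_comm]
    apply mul_le_mul_of_nonneg_left _ (wt_nonneg E hp0 hp1 H)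
    obtain ⟨S, hSP, hSH, hSk⟩ := hcert H hP
    calc l ^ k ≤ l ^ S.card := pow_le_pow_of_le_one hl0 hl1 hSk
      _ = ∑ H' ∈ H.powerset.filter (fun H' => S ⊆ H'), wt H l H' := (upset_sum H S hSH l).symm
      _ = ∑ H' ∈ H.powerset.filter (fun H' => S ⊆ H'), (if H' ⊆ H then wt H l H' else 0) := by
          apply Finset.sum_congr rfl
          intro H' hH'
          rw [if_pos (Finset.mem_powerset.mp (Finset.mem_filter.mp hH').1)]
      _ ≤ ∑ H' ∈ E.powerset.filter (fun H => H ∈ P), (if H' ⊆ H then wt H l H' else 0) := by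
          apply Finset.sum_le_sum_of_subset_of_nonneg
          · intro H' hH'
            obtain ⟨h1, h2⟩ := Finset.mem_filter.mp hH'
            have h1' := Finset.mem_powerset.mp h1
            exact Finset.mem_filter.mpr ⟨Finset.mem_powerset.mpr (h1'.trans hHE),
              hinc S hSP H' h2 (h1'.trans hHE)⟩
          · intro H' _ _; exact hnn H'
  · simp only [hP, if_false]
    exact mul_nonneg (wt_nonneg E hp0 hp1 H) (Finset.sum_nonneg (fun H' _ => hnn H'))

/-- First moment (union) bound. -/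
lemma first_moment (E : Finset α) (P : Set (Finset α)) (G : Finset (Finset α))
    (hG : ∀ S ∈ G, S ⊆ E) (hcov : ∀ H ∈ P, ∃ S ∈ G, S ⊆ H)
    (p : ℝ) (hp0 : 0 ≤ p) (hp1 : p ≤ 1) :
    muG E p P ≤ ∑ S ∈ G, p ^ S.card := by
  classical
  unfold muG
  calc ∑ H ∈ E.powerset.filter (fun H => H ∈ P), wt E p H
      ≤ ∑ H ∈ E.powerset.filter (fun H => H ∈ P), ∑ S ∈ G, (if S ⊆ H then wt E p H else 0) := by
        apply Finset.sum_le_sum
        intro H hH
        obtain ⟨S, hS, hSH⟩ := hcov H (Finset.mem_filter.mp hH).2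
        have : (if S ⊆ H then wt E p H else 0) ≤ ∑ S ∈ G, (if S ⊆ H then wt E p H else 0) :=
          Finset.single_le_sum (f := fun S => if S ⊆ H then wt E p H else 0)
            (fun S _ => by split_ifs; exacts [wt_nonneg E hp0 hp1 H, le_rfl]) hS
        simpa only [hSH, if_true] using this
    _ ≤ ∑ H ∈ E.powerset, ∑ S ∈ G, (if S ⊆ H then wt E p H else 0) := by
        apply Finset.sum_le_sum_of_subset_of_nonneg (Finset.filter_subset _ _)
        intro H _ _
        apply Finset.sum_nonneg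
        intro S _
        split_ifs; exacts [wt_nonneg E hp0 hp1 H, le_rfl]
    _ = ∑ S ∈ G, ∑ H ∈ E.powerset, (if S ⊆ H then wt E p H else 0) := Finset.sum_comm
    _ = ∑ S ∈ G, p ^ S.card := by
        apply Finset.sum_congr rfl
        intro S hS
        rw [← Finset.sum_filter, upset_sum E S (hG S hS) p]



/-- `inf {p ∈ [0,1] : μ_p(P) ≥ a}` over a general ground set. -/
noncomputable def pAtG (E : Finset α) (a : ℝ) (P : Set (Finset α)) : ℝ :=
  sInf {p : ℝ | 0 ≤ p ∧ p ≤ 1 ∧ a ≤ muG E p P}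

omit [DecidableEq α] in
lemma muG_one (E : Finset α) (P : Set (Finset α)) (hE : E ∈ P) : muG E 1 P = 1 := by
  classical
  unfold muG
  rw [Finset.sum_eq_single E]
  · simp [wt]
  · intro H hH hne
    have hHE := Finset.mem_powerset.mp (Finset.mem_filter.mp hH).1
    have hlt : H.card < E.card := Finset.card_lt_card (lt_of_le_of_ne hHE hne)
    unfold wt
    have : E.card - H.card ≠ 0 := by omega
    simp [this]
  · intro h
    exact absurd (Finset.mem_filter.mpr ⟨Finset.mem_powerset.mpr (le_refl E), hE⟩) h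

/-- General lower bound for the width of the threshold interval in terms of the certificate size. -/
lemma width_lower (E : Finset α) (P : Set (Finset α)) (hE : E ∈ P)
    (hinc : ∀ H ∈ P, ∀ H', H ⊆ H' → H' ⊆ E → H' ∈ P)
    (k : ℕ) (hk : 1 ≤ k) (hcert : ∀ H ∈ P, ∃ S ∈ P, S ⊆ H ∧ S.card ≤ k)
    (ε : ℝ) (hε0 : 0 < ε) (hε1 : ε < 1 / 2) :
    (1 - 2 * ε) / ((1 - ε) * k) * pAtG E (1 - ε) P ≤ pAtG E (1 - ε) P - pAtG E ε P := by
  have hkpos : (0 : ℝ) < k := by exact_mod_cast hk
  have h1e : 0 < 1 - ε := by linarith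
  set t : ℝ := (1 - 2 * ε) / ((1 - ε) * k) with ht
  have ht0 : 0 < t := by
    apply div_pos (by linarith) (by positivity)
  have hkt : (k : ℝ) * t = (1 - 2 * ε) / (1 - ε) := by
    rw [ht]; field_simp
  have hkt1 : (k : ℝ) * t < 1 := by
    rw [hkt, div_lt_one h1e]; linarith
  have ht1 : t < 1 := by
    have : t ≤ k * t := by
      have : (1 : ℝ) ≤ k := by exact_mod_cast hk
      nlinarith
    linarith
  set l : ℝ := 1 - t with hl
  have hl0 : 0 < l := by linarith
  have hl1 : l ≤ 1 := by linarith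
  have hbern : ε / (1 - ε) ≤ l ^ k := by
    have hb := one_add_mul_le_pow (a := -t) (by linarith) k
    have e1 : 1 + (k : ℝ) * (-t) = ε / (1 - ε) := by
      have : (k : ℝ) * (-t) = -((1 - 2 * ε) / (1 - ε)) := by rw [← hkt]; ring
      rw [this]; field_simp; ring
    have e2 : (1 : ℝ) + -t = l := by rw [hl]; ring
    rw [e1, e2] at hb
    exact hb
  have hbdd : ∀ a, BddBelow {p : ℝ | 0 ≤ p ∧ p ≤ 1 ∧ a ≤ muG E p P} :=
    fun a => ⟨0, fun p hp => hp.1⟩
  have hne : {p : ℝ | 0 ≤ p ∧ p ≤ 1 ∧ (1 - ε) ≤ muG E p P}.Nonempty :=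
    ⟨1, by norm_num, le_refl 1, by rw [muG_one E P hE]; linarith⟩
  have key : ∀ p ∈ {p : ℝ | 0 ≤ p ∧ p ≤ 1 ∧ (1 - ε) ≤ muG E p P}, pAtG E ε P / l ≤ p := by
    intro p hp
    obtain ⟨hp0, hp1, hmu⟩ := hp
    rw [div_le_iff₀ hl0]
    apply csInf_le (hbdd ε)
    refine ⟨by positivity, by nlinarith, ?_⟩
    have hthin := thinning E P hinc k hcert p l hp0 hp1 hl0.le hl1
    rw [mul_comm p l]
    calc ε = ε / (1 - ε) * (1 - ε) := by field_simp
      _ ≤ l ^ k * muG E p P := by
          apply mul_le_mul hbern hmu h1e.le (by positivity)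
      _ ≤ muG E (l * p) P := hthin
  have h2 : pAtG E ε P / l ≤ pAtG E (1 - ε) P := le_csInf hne key
  rw [div_le_iff₀ hl0] at h2
  rw [hl] at h2
  linarith

end general

end Vale.Agent.Lib.P063
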